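import Vale.Agent.Lib.P340.Defs
import Vale.Agent.Lib.P340.Main

/-!
The Barendregt-Geuvers-Klop implication for all nondependent tiered pure type systems.
-/

namespace Vale.Agent.Results.P340.A_main

open Vale.Agent.Lib.P340

/-- For every finite axiom chain of `n` sorts and every relation `R` on the sorts such that `R i j`
implies `j ≤ i` (nondependence), if the tiered pure type system with rules `(i, j, j)` for `R i j` is
weakly normalizing then it is strongly normalizing. -/
theorem result (n : ℕ) (R : Fin n → Fin n → Prop) (hR : Nondependent R) :
    WeaklyNormalizing (tiered n R) → StronglyNormalizing (tiered n R) :=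
  main_thm n R hR

end Vale.Agent.Results.P340.A_main
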